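import Vale.Agent.P072.Main

namespace Vale.Agent.Results.P072.Permanence

open Set MeasureTheory Filter

/-- The positive stoichiometric class of `c`: positive points `x` with `x - c` in the span of the
reaction vectors `y' - y`. A reaction `y → y'` is the pair `(y, y')`. -/
def stoichClass {d : ℕ} (R : Finset ((Fin d → ℕ) × (Fin d → ℕ))) (c : Fin d → ℝ) :
    Set (Fin d → ℝ) :=
  {x | (∀ i, 0 < x i) ∧
    x - c ∈ Submodule.span ℝ {v : Fin d → ℝ | ∃ r ∈ R, v = fun i => (r.2 i : ℝ) - (r.1 i : ℝ)}}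

/-- The mass-action vector field with rates `k`. -/
def massAction {d : ℕ} (R : Finset ((Fin d → ℕ) × (Fin d → ℕ)))
    (k : (Fin d → ℕ) × (Fin d → ℕ) → ℝ) (x : Fin d → ℝ) : Fin d → ℝ :=
  fun i => ∑ r ∈ R, k r * (∏ j, x j ^ r.1 j) * ((r.2 i : ℝ) - (r.1 i : ℝ))

theorem massAction_eq {d : ℕ} (R : Finset ((Fin d → ℕ) × (Fin d → ℕ))) :
    massAction R = Vale.Agent.P072.fld R := by
  funext k x i
  simp [massAction, Vale.Agent.P072.fld, Vale.Agent.P072.mon, Vale.Agent.P072.vec,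
    Finset.sum_apply]

theorem span_eq {d : ℕ} (R : Finset ((Fin d → ℕ) × (Fin d → ℕ))) :
    {v : Fin d → ℝ | ∃ r ∈ R, v = fun i => (r.2 i : ℝ) - (r.1 i : ℝ)} =
      Vale.Agent.P072.vec '' (R : Set (Vale.Agent.P072.Rx d)) := by
  ext v
  constructor
  · rintro ⟨r, hr, rfl⟩; exact ⟨r, hr, rfl⟩
  · rintro ⟨r, hr, rfl⟩; exact ⟨r, hr, rfl⟩

theorem varying {d : ℕ} (R : Finset ((Fin d → ℕ) × (Fin d → ℕ)))
    (hwr : ∀ r ∈ R, Relation.TransGen (fun y y' => (y, y') ∈ R) r.2 r.1)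
    (c : Fin d → ℝ) (hc : ∀ i, 0 < c i) (ε : ℝ) (hε : 0 < ε) :
    ∃ K : Set (Fin d → ℝ), IsCompact K ∧ K ⊆ stoichClass R c ∧
      ∀ k : (Fin d → ℕ) × (Fin d → ℕ) → ℝ → ℝ, (∀ r ∈ R, Measurable (k r)) →
        (∀ r ∈ R, ∀ t, 0 ≤ t → k r t ∈ Icc ε ε⁻¹) → ∀ x₀ ∈ stoichClass R c,
        ∃ x : ℝ → Fin d → ℝ, Continuous x ∧
          (∀ t, 0 ≤ t →
            IntervalIntegrable (fun s => massAction R (fun r => k r s) (x s)) volume 0 t ∧
            x t = x₀ + ∫ s in (0 : ℝ)..t, massAction R (fun r => k r s) (x s)) ∧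
          (∀ t, 0 ≤ t → x t ∈ stoichClass R c) ∧ (∃ t₀ : ℝ, ∀ t, t₀ ≤ t → x t ∈ K) ∧
          ∀ (τ : ℝ) (z : ℝ → Fin d → ℝ), 0 ≤ τ → ContinuousOn z (Icc 0 τ) →
            (∀ t ∈ Icc 0 τ,
              z t = x₀ + ∫ s in (0 : ℝ)..t, massAction R (fun r => k r s) (z s)) →
            ∀ t ∈ Icc 0 τ, z t = x t := by
  obtain ⟨β, hβ⟩ := Vale.Agent.P072.main R hwr hε c hc
  unfold stoichClass
  rw [massAction_eq, span_eq]
  set S := Submodule.span ℝ (Vale.Agent.P072.vec '' (R : Set (Vale.Agent.P072.Rx d))) with hS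
  refine ⟨Icc (fun _ => Real.exp (-β)) (fun _ => Real.exp β) ∩ {x | x - c ∈ S}, ?_, ?_, ?_⟩
  · exact isCompact_Icc.inter_right
      (S.closed_of_finiteDimensional.preimage (continuous_id.sub continuous_const))
  · rintro x ⟨h1, h2⟩
    exact ⟨fun i => (Real.exp_pos _).trans_le (h1.1 i), h2⟩
  intro k hkm hk x0 hx0
  have hm' : ∀ r ∈ R, Measurable fun t => k r (max t 0) := fun r hr =>
    (hkm r hr).comp (measurable_id.max measurable_const)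
  have hk' : ∀ r ∈ R, ∀ t, ε ≤ k r (max t 0) ∧ k r (max t 0) ≤ ε⁻¹ := fun r hr t =>
    hk r hr _ (le_max_right _ _)
  have hk'' : ∀ r ∈ R, ∀ t, |k r (max t 0)| ≤ ε⁻¹ := fun r hr t => by
    rw [abs_of_pos (hε.trans_le (hk' r hr t).1)]; exact (hk' r hr t).2
  obtain ⟨x, hxc, hxe, hxP, t0, ht0⟩ := hβ (fun r t => k r (max t 0)) hm' hk' x0 hx0.1 hx0.2
  have hcongr : ∀ (z : ℝ → Fin d → ℝ) (t : ℝ), 0 ≤ t → EqOn
      (fun s => Vale.Agent.P072.fld R (fun r => k r (max s 0)) (z s))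
      (fun s => Vale.Agent.P072.fld R (fun r => k r s) (z s)) (uIcc 0 t) := by
    intro z t ht s hs
    rw [uIcc_of_le ht] at hs
    simp only [max_eq_left hs.1]
  refine ⟨x, hxc, fun t ht => ⟨?_, ?_⟩, hxP, ⟨max 0 t0, fun t ht => ?_⟩, ?_⟩
  · exact ((Vale.Agent.P072.fld_int R hm' hk'' (hxc.continuousOn (s := uIcc 0 t))).1).congr
      ((hcongr x t ht).mono uIoc_subset_uIcc)
  · rw [← intervalIntegral.integral_congr (hcongr x t ht)]
    exact hxe t ht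
  · have h1 := ht0 t ((le_max_right _ _).trans ht)
    exact ⟨⟨fun i => (h1 i).1, fun i => (h1 i).2⟩, (hxP t ((le_max_left _ _).trans ht)).2⟩
  · intro τ z hτ hz ez
    refine Vale.Agent.P072.uniq R hm' hk'' hτ hz hxc.continuousOn (fun t ht => ?_)
      (fun t ht => hxe t ht.1)
    rw [intervalIntegral.integral_congr (hcongr z t ht.1)]
    exact ez t ht

theorem result (d : ℕ) (C : Finset (Fin d → ℕ)) (R : Finset ((Fin d → ℕ) × (Fin d → ℕ)))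
    (hC : ∀ r ∈ R, r.1 ∈ C ∧ r.2 ∈ C ∧ r.1 ≠ r.2)
    (hwr : ∀ r ∈ R, Relation.TransGen (fun y y' => (y, y') ∈ R) r.2 r.1)
    (c : Fin d → ℝ) (hc : ∀ i, 0 < c i) :
    (∀ k : (Fin d → ℕ) × (Fin d → ℕ) → ℝ, (∀ r ∈ R, 0 < k r) →
      ∃ K : Set (Fin d → ℝ), IsCompact K ∧ K ⊆ stoichClass R c ∧ ∀ x₀ ∈ stoichClass R c,
        ∃ x : ℝ → Fin d → ℝ, x 0 = x₀ ∧
          (∀ t, 0 ≤ t → HasDerivWithinAt x (massAction R k (x t)) (Ici 0) t) ∧
          (∀ t, 0 ≤ t → x t ∈ stoichClass R c) ∧ (∃ t₀ : ℝ, ∀ t, t₀ ≤ t → x t ∈ K) ∧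
          ∀ (τ : ℝ) (z : ℝ → Fin d → ℝ), 0 ≤ τ → z 0 = x₀ →
            (∀ t ∈ Icc 0 τ, HasDerivWithinAt z (massAction R k (z t)) (Icc 0 τ) t) →
            ∀ t ∈ Icc 0 τ, z t = x t) ∧
    (∀ ε : ℝ, 0 < ε → ∃ K : Set (Fin d → ℝ), IsCompact K ∧ K ⊆ stoichClass R c ∧
      ∀ k : (Fin d → ℕ) × (Fin d → ℕ) → ℝ → ℝ, (∀ r ∈ R, Measurable (k r)) →
        (∀ r ∈ R, ∀ t, 0 ≤ t → k r t ∈ Icc ε ε⁻¹) → ∀ x₀ ∈ stoichClass R c,
        ∃ x : ℝ → Fin d → ℝ, ContinuousOn x (Ici 0) ∧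
          (∀ t, 0 ≤ t →
            IntervalIntegrable (fun s => massAction R (fun r => k r s) (x s)) volume 0 t ∧
            x t = x₀ + ∫ s in (0 : ℝ)..t, massAction R (fun r => k r s) (x s)) ∧
          (∀ t, 0 ≤ t → x t ∈ stoichClass R c) ∧ (∃ t₀ : ℝ, ∀ t, t₀ ≤ t → x t ∈ K) ∧
          ∀ (τ : ℝ) (z : ℝ → Fin d → ℝ), 0 ≤ τ → ContinuousOn z (Icc 0 τ) →
            (∀ t ∈ Icc 0 τ,
              z t = x₀ + ∫ s in (0 : ℝ)..t, massAction R (fun r => k r s) (z s)) →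
            ∀ t ∈ Icc 0 τ, z t = x t) := by
  have _ := hC
  refine ⟨fun k hk => ?_, fun ε hε => ?_⟩
  · have h1 : ∀ᶠ ε : ℝ in nhdsWithin 0 (Ioi 0), ∀ r ∈ R, ε ≤ k r ∧ ε ≤ (k r)⁻¹ := by
      rw [eventually_all_finset]
      intro r hr
      exact ((eventually_le_nhds (hk r hr)).and
        (eventually_le_nhds (inv_pos.mpr (hk r hr)))).filter_mono nhdsWithin_le_nhds
    obtain ⟨ε, h2, hε⟩ := (h1.and self_mem_nhdsWithin).exists
    replace hε : 0 < ε := hε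
    obtain ⟨K, hK, hKP, h⟩ := varying R hwr c hc ε hε
    refine ⟨K, hK, hKP, fun x0 hx0 => ?_⟩
    obtain ⟨x, hxc, hxe, hxP, hev, huniq⟩ := h (fun r _ => k r) (fun _ _ => measurable_const)
      (fun r hr _ _ => ⟨(h2 r hr).1, (le_inv_comm₀ (hk r hr) hε).mpr (h2 r hr).2⟩) x0 hx0
    have hf : Continuous (massAction R k) := by unfold massAction; fun_prop
    refine ⟨x, by simpa using (hxe 0 le_rfl).2, fun t ht => ?_, hxP, hev, ?_⟩
    · have h3 := ((hf.comp hxc).integral_hasStrictDerivAt 0 t).hasDerivAt.const_add x0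
      exact h3.hasDerivWithinAt.congr (fun s hs => (hxe s hs).2) (hxe t ht).2
    · intro τ z hτ hz0 hz
      have hzc : ContinuousOn z (Icc 0 τ) := fun t ht => (hz t ht).continuousWithinAt
      refine huniq τ z hτ hzc fun t ht => ?_
      have hsub : Icc 0 t ⊆ Icc 0 τ := Icc_subset_Icc le_rfl ht.2
      have h4 := intervalIntegral.integral_eq_sub_of_hasDeriv_right_of_le ht.1 (hzc.mono hsub)
        (f' := fun s => massAction R k (z s)) (fun s hs =>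
          ((hz s ⟨hs.1.le, hs.2.le.trans ht.2⟩).hasDerivAt
            (Icc_mem_nhds hs.1 (hs.2.trans_le ht.2))).hasDerivWithinAt)
        ((hf.comp_continuousOn (hzc.mono hsub)).intervalIntegrable_of_Icc ht.1)
      rw [h4, hz0]; abel
  · obtain ⟨K, hK, hKP, h⟩ := varying R hwr c hc ε hε
    refine ⟨K, hK, hKP, fun k hkm hk x0 hx0 => ?_⟩
    obtain ⟨x, hxc, hrest⟩ := h k hkm hk x0 hx0
    exact ⟨x, hxc.continuousOn, hrest⟩

end Vale.Agent.Results.P072.Permanence
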